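import Vale.Agent.H27.CT.F4
import Vale.Agent.H27.CT.NE

open Finset

namespace Vale.Agent.Results.P328.Sampler

open Vale.Agent.H27.CT

/-- **Rapid mixing of the three-row heat-bath chain for all margins; the resulting
almost-uniform sampler for contingency tables.** -/
theorem result {m n : ℕ} (hm : 1 ≤ m) (r : Fin m → ℕ) (c : Fin n → ℕ) (N : ℕ)
    (hr : ∑ i, r i = N) (hc : ∑ j, c j = N) (i₀ : Fin m) (hi₀ : ∀ i, r i ≤ r i₀) :
    Nonempty (Tab (rowPlus r i₀) (colPlus c)) ∧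
    ∀ (x₀ : Tab (rowPlus r i₀) (colPlus c)) (ε : ℝ), 0 < ε → ε < 1 → ∀ t : ℕ,
      210 * (m : ℝ) ^ 4 * ((n : ℝ) + 1) ^ 7 * (1 + Real.log (N + 1)) *
        (m * (n + 1) * Real.log (N + 2) + 2 * Real.log (2 * (m * n + 1) / ε)) ≤ t →
      1 / (2 * ((m : ℝ) * n + 1))
          ≤ ∑ Z : Tab r c, (heatBath (rowPlus r i₀) (colPlus c) ^ t) x₀ (extend i₀ Z) ∧
        1 / 2 * ∑ X : Tab r c, |outLaw i₀ x₀ t X - 1 / (Fintype.card (Tab r c) : ℝ)| ≤ ε :=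
  ⟨ext_nonempty r c N hr hc i₀, fun x₀ ε hε hε1 t ht =>
    sampler hm r c N hr hc i₀ hi₀ x₀ ε hε hε1 t ht⟩

end Vale.Agent.Results.P328.Sampler
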